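import Vale.Agent.P061.Defs

namespace Vale.Agent.P061

open scoped Classical

namespace MGraph

variable {V E : Type} [Fintype V] [Fintype E]

omit [Fintype E] in
lemma span_isTree (G : MGraph V E) {T : Finset E} (hT : G.IsSpanningTree T) :
    (G.span T).IsTree := by
  rw [SimpleGraph.isTree_iff_connected_and_card]
  refine ⟨hT.2, ?_⟩
  have h1 := hT.2.card_vert_le_card_edgeSet_add_one
  have h2 : Nat.card (G.span T).edgeSet ≤ T.card := by
    have hsub : (G.span T).edgeSet ⊆ ((T.image G.ends : Finset (Sym2 V)) : Set (Sym2 V)) := by
      intro x hx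
      induction x using Sym2.ind with
      | _ a b =>
        rw [SimpleGraph.mem_edgeSet] at hx
        obtain ⟨e, he, h3⟩ := hx.2
        simp only [Finset.coe_image, Set.mem_image, Finset.mem_coe]
        exact ⟨e, he, h3⟩
    calc Nat.card (G.span T).edgeSet
        ≤ Nat.card ((T.image G.ends : Finset (Sym2 V)) : Set (Sym2 V)) :=
          Nat.card_mono (Finset.finite_toSet _) hsub
      _ = (T.image G.ends).card := by simp
      _ ≤ T.card := Finset.card_image_le
  have h3 := hT.1
  have h4 : Nat.card V = Fintype.card V := Nat.card_eq_fintype_card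
  omega

/-- Every spanning tree is contained in a single cut (its bipartition). -/
lemma exists_full_cut (G : MGraph V E) {T : Finset E} (hT : G.IsSpanningTree T)
    (hV : 2 ≤ Fintype.card V) :
    ∃ S : Finset V, S.Nonempty ∧ S ≠ Finset.univ ∧ T ⊆ G.cut S := by
  obtain ⟨c⟩ := (G.span_isTree hT).colorable_two
  have key : ∀ e ∈ T, G.Crosses (Finset.univ.filter (fun v => c v = 0)) e := by
    intro e he
    have hl := G.loopless e
    revert hl
    generalize hx : G.ends e = x
    induction x using Sym2.ind with
    | _ a b =>
      intro hl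
      have hab : a ≠ b := by simpa using hl
      have hadj : (G.span T).Adj a b := ⟨hab, e, he, hx⟩
      have hc := c.valid hadj
      by_cases ha : c a = 0
      · refine ⟨a, b, by simp [ha], ?_, hx⟩
        simp only [Finset.mem_filter, Finset.mem_univ, true_and]
        intro hb
        exact hc (ha.trans hb.symm)
      · refine ⟨b, a, ?_, by simp [ha], hx.trans Sym2.eq_swap⟩
        simp only [Finset.mem_filter, Finset.mem_univ, true_and]
        have h1 : c a = 1 := by
          have := Fin.exists_fin_two.mp ⟨c a, rfl⟩
          omega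
        by_contra hb
        have h2 : c b = 1 := by
          have := Fin.exists_fin_two.mp ⟨c b, rfl⟩
          omega
        exact hc (h1.trans h2.symm)
  have hne : T.Nonempty := by
    rw [← Finset.card_pos]
    have := hT.1
    omega
  obtain ⟨e, he⟩ := hne
  obtain ⟨a, b, ha, hb, -⟩ := key e he
  refine ⟨_, ⟨a, ha⟩, ?_, ?_⟩
  · intro h
    rw [h] at hb
    exact hb (Finset.mem_univ b)
  · intro e he
    simp only [cut, Finset.mem_filter, Finset.mem_univ, true_and]
    exact key e he

lemma Thin.card_le_of_subset {G : MGraph V E} {T : Finset E} {α : ℝ} (hα : G.Thin T α)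
    {S : Finset V} (hS : S.Nonempty) (hS' : S ≠ Finset.univ) (hsub : T ⊆ G.cut S) :
    (T.card : ℝ) ≤ α * ((G.cut S).card : ℝ) := by
  have h := hα S hS hS'
  rwa [Finset.inter_eq_right.mpr hsub] at h

end MGraph

end Vale.Agent.P061
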