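import Vale.Agent.P061.Basic

namespace Vale.Agent.P061

open scoped Classical

/-- The complete graph on `Fin n` as a multigraph: one copy for every unordered pair. -/
def completeMG (n : ℕ) : MGraph (Fin n) {x : Sym2 (Fin n) // ¬ x.IsDiag} where
  ends := Subtype.val
  loopless := fun e => e.2

lemma completeMG_card_cut (n : ℕ) (S : Finset (Fin n)) :
    ((completeMG n).cut S).card = S.card * (n - S.card) := by
  have h : (S ×ˢ Sᶜ).card = ((completeMG n).cut S).card := by
    refine Finset.card_bij
      (fun p hp => (⟨s(p.1, p.2), by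
        simp only [Finset.mem_product, Finset.mem_compl] at hp
        simp only [Sym2.mk_isDiag_iff]
        intro h
        exact hp.2 (h ▸ hp.1)⟩ : {x : Sym2 (Fin n) // ¬ x.IsDiag})) ?_ ?_ ?_
    · intro p hp
      simp only [Finset.mem_product, Finset.mem_compl] at hp
      simp only [MGraph.cut, Finset.mem_filter, Finset.mem_univ, true_and]
      exact ⟨p.1, p.2, hp.1, hp.2, rfl⟩
    · intro p hp q hq h
      simp only [Finset.mem_product, Finset.mem_compl] at hp hq
      simp only [Subtype.mk.injEq, Sym2.eq_iff] at h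
      rcases h with h | h
      · exact Prod.ext h.1 h.2
      · exact absurd (h.1 ▸ hp.1) hq.2
    · intro e he
      simp only [MGraph.cut, Finset.mem_filter, Finset.mem_univ, true_and] at he
      obtain ⟨a, b, ha, hb, hab⟩ := he
      refine ⟨(a, b), by simp [ha, hb], ?_⟩
      exact Subtype.ext hab.symm
  rw [← h, Finset.card_product, Finset.card_compl, Fintype.card_fin]

lemma completeMG_edgeConnected (n : ℕ) : (completeMG n).EdgeConnected (n - 1) := by
  intro S hS hS'
  rw [completeMG_card_cut]
  have h1 : 1 ≤ S.card := Finset.card_pos.mpr hS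
  have h2 : S.card < n := by
    have := (Finset.card_lt_iff_ne_univ S).mpr hS'
    simpa using this
  obtain ⟨a, ha⟩ : ∃ a, S.card = a + 1 := ⟨S.card - 1, by omega⟩
  obtain ⟨b, hb⟩ : ∃ b, n = a + 1 + (b + 1) := ⟨n - S.card - 1, by omega⟩
  rw [ha, hb]
  have : a + 1 + (b + 1) - (a + 1) = b + 1 := by omega
  rw [this]
  have : a + 1 + (b + 1) - 1 = a + b + 1 := by omega
  rw [this]
  nlinarith [Nat.zero_le (a * b)]

/-- Any thinness achieved by a spanning tree of `K_n` is at least `4 (n-1) / n^2`. -/
lemma completeMG_thin_lower (n : ℕ) (hn : 2 ≤ n) (T : Finset {x : Sym2 (Fin n) // ¬ x.IsDiag})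
    (hT : (completeMG n).IsSpanningTree T) (α : ℝ) (hα : (completeMG n).Thin T α) :
    4 * ((n : ℝ) - 1) / (n : ℝ) ^ 2 ≤ α := by
  obtain ⟨S, hS, hS', hsub⟩ := (completeMG n).exists_full_cut hT (by simpa using hn)
  have h := hα.card_le_of_subset hS hS' hsub
  rw [completeMG_card_cut] at h
  have hc : (T.card : ℝ) = (n : ℝ) - 1 := by
    have := hT.1
    simp only [Fintype.card_fin] at this
    have h2 : ((T.card + 1 : ℕ) : ℝ) = (n : ℝ) := by exact_mod_cast this
    push_cast at h2
    linarith
  have hle : S.card ≤ n := by simpa using Finset.card_le_univ S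
  rw [hc] at h
  push_cast [Nat.cast_sub hle] at h
  have hsn : (S.card : ℝ) ≤ (n : ℝ) := by exact_mod_cast hle
  set s : ℝ := (S.card : ℝ) with hs
  have hn0 : (0 : ℝ) < (n : ℝ) := by positivity
  have hn1 : (1 : ℝ) ≤ (n : ℝ) - 1 := by
    have : (2 : ℝ) ≤ (n : ℝ) := by exact_mod_cast hn
    linarith
  have hprod : s * ((n : ℝ) - s) ≤ (n : ℝ) ^ 2 / 4 := by nlinarith [sq_nonneg ((n : ℝ) - 2 * s)]
  have hαpos : 0 < α := by
    by_contra hneg
    rw [not_lt] at hneg
    have hs0 : 0 ≤ s * ((n : ℝ) - s) := by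
      apply mul_nonneg
      · positivity
      · linarith
    nlinarith
  rw [div_le_iff₀ (by positivity)]
  nlinarith

end Vale.Agent.P061
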