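import Mathlib

namespace Vale.Agent.P061

open scoped Classical

/-- A loopless multigraph with vertex type `V` and type of edge copies `E`:
every edge copy has an unordered pair of distinct endpoints; distinct copies may be parallel. -/
structure MGraph (V E : Type) where
  ends : E → Sym2 V
  loopless : ∀ e, ¬ (ends e).IsDiag

namespace MGraph

variable {V E : Type} [Fintype V] [Fintype E]

/-- The edge copy `e` has exactly one endpoint in `S`. -/
def Crosses (G : MGraph V E) (S : Finset V) (e : E) : Prop :=
  ∃ a b, a ∈ S ∧ b ∉ S ∧ G.ends e = s(a, b)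

/-- The cut `δ_G(S)`: all edge copies with exactly one endpoint in `S`. -/
noncomputable def cut (G : MGraph V E) (S : Finset V) : Finset E :=
  Finset.univ.filter (fun e => G.Crosses S e)

/-- `G` is `k`-edge-connected: every nonempty proper vertex set has at least `k` crossing copies. -/
def EdgeConnected (G : MGraph V E) (k : ℕ) : Prop :=
  ∀ S : Finset V, S.Nonempty → S ≠ Finset.univ → k ≤ (G.cut S).card

/-- The simple graph on `V` whose edges are the endpoint pairs of the copies in `T`. -/
def span (G : MGraph V E) (T : Finset E) : SimpleGraph V where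
  Adj a b := a ≠ b ∧ ∃ e ∈ T, G.ends e = s(a, b)
  symm := ⟨fun a b h => ⟨h.1.symm, by
    obtain ⟨e, he, h2⟩ := h.2
    exact ⟨e, he, by rw [h2, Sym2.eq_swap]⟩⟩⟩
  loopless := ⟨fun a h => h.1 rfl⟩

/-- `T` is a spanning tree: `|V| - 1` edge copies which connect all of `V`. -/
def IsSpanningTree (G : MGraph V E) (T : Finset E) : Prop :=
  T.card + 1 = Fintype.card V ∧ (G.span T).Connected

/-- `T` is `α`-thin: `|δ_T(S)| ≤ α |δ_G(S)|` for every nonempty proper `S`. -/
def Thin (G : MGraph V E) (T : Finset E) (α : ℝ) : Prop :=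
  ∀ S : Finset V, S.Nonempty → S ≠ Finset.univ →
    (((G.cut S) ∩ T).card : ℝ) ≤ α * ((G.cut S).card : ℝ)

end MGraph

/-- The strong thin tree statement with constant `C`. -/
def StrongThinTree (C : ℝ) : Prop :=
  ∀ k : ℕ, 1 ≤ k → ∀ (V E : Type) [Fintype V] [Fintype E] (G : MGraph V E),
    2 ≤ Fintype.card V → G.EdgeConnected k →
      ∃ T : Finset E, G.IsSpanningTree T ∧ G.Thin T (C / k)

end Vale.Agent.P061
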